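/-
S0112 (row 84), package G of `notes/s0112/PROOF.md`: random phases in `{1, i, -1, -i}`.
Pure Mathlib.  Phases are indexed by `θ : Fin N → Fin 4`, `phase θ i = I ^ (θ i)`.
-/
import Mathlib

set_option autoImplicit false

namespace Crest.Agent.Helper62.S0112

open scoped BigOperators ComplexConjugate InnerProductSpace

/-- The phase `i ^ (θ i)` attached to the `i`-th coordinate of `θ`. -/
noncomputable def phase {N : ℕ} (θ : Fin N → Fin 4) (i : Fin N) : ℂ := Complex.I ^ (θ i : ℕ)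

lemma phase_pow_four {N : ℕ} (θ : Fin N → Fin 4) (i : Fin N) : phase θ i ^ 4 = 1 := by
  unfold phase
  rw [← pow_mul, mul_comm, pow_mul, Complex.I_pow_four, one_pow]

lemma norm_phase {N : ℕ} (θ : Fin N → Fin 4) (i : Fin N) : ‖phase θ i‖ = 1 := by
  unfold phase
  rw [norm_pow, Complex.norm_I, one_pow]

lemma conj_phase {N : ℕ} (θ : Fin N → Fin 4) (i : Fin N) :
    conj (phase θ i) = phase θ i ^ 3 := by
  have h1 : phase θ i * conj (phase θ i) = 1 := by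
    rw [Complex.mul_conj, Complex.normSq_eq_norm_sq, norm_phase]; simp
  have h4 := phase_pow_four θ i
  have h0 : phase θ i ≠ 0 := by
    intro h; rw [h] at h4; norm_num at h4
  apply mul_left_cancel₀ h0
  rw [h1, ← h4]; ring

lemma sum_pow_I (m : ℕ) :
    ∑ b : Fin 4, (Complex.I ^ (b : ℕ)) ^ m = if 4 ∣ m then 4 else 0 := by
  have h4 : Complex.I ^ 4 = 1 := Complex.I_pow_four
  obtain ⟨q, r, hr, rfl⟩ : ∃ q r, r < 4 ∧ m = 4 * q + r :=
    ⟨m / 4, m % 4, Nat.mod_lt _ (by norm_num), (Nat.div_add_mod m 4).symm⟩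
  have key : ∀ b : ℕ, (Complex.I ^ b) ^ (4 * q + r) = (Complex.I ^ b) ^ r := by
    intro b
    rw [pow_add, ← pow_mul, ← mul_assoc, mul_comm b 4, mul_assoc, pow_mul, h4, one_pow, one_mul]
  simp only [Fin.sum_univ_four, key]
  have hdvd : (4 ∣ 4 * q + r) ↔ r = 0 := by omega
  rw [if_congr hdvd rfl rfl]
  interval_cases r
  · simp; norm_num
  · simp [Complex.I_sq]
  · simp [Complex.I_sq]
  · simp [Complex.I_sq]
    ring_nf
    simp


/-- Product formula: the average of a monomial in the phases. -/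
lemma sum_prod_phase {N : ℕ} (m : Fin N → ℕ) :
    ∑ θ : Fin N → Fin 4, ∏ a, (phase θ a) ^ (m a) = if ∀ a, 4 ∣ m a then (4 : ℂ) ^ N else 0 := by
  have h := Finset.prod_univ_sum (fun _ : Fin N => (Finset.univ : Finset (Fin 4)))
    (fun a b => (Complex.I ^ (b : ℕ)) ^ (m a))
  rw [Fintype.piFinset_univ] at h
  unfold phase
  rw [← h]
  simp only [sum_pow_I]
  split_ifs with hall
  · rw [Finset.prod_congr rfl (fun a _ => if_pos (hall a))]
    simp
  · push Not at hall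
    obtain ⟨a, ha⟩ := hall
    exact Finset.prod_eq_zero (Finset.mem_univ a) (if_neg ha)

lemma prod_pow_single {N : ℕ} (f : Fin N → ℂ) (i : Fin N) (p : ℕ) :
    ∏ a, f a ^ (if a = i then p else 0) = f i ^ p := by
  rw [Fintype.prod_eq_single i]
  · simp
  · intro a ha
    simp [ha]

/-- Second moment of the phases. -/
lemma sum_phase_two {N : ℕ} (i j : Fin N) :
    ∑ θ : Fin N → Fin 4, conj (phase θ i) * phase θ j = if i = j then (4 : ℂ) ^ N else 0 := by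
  have hmono : ∀ θ : Fin N → Fin 4, conj (phase θ i) * phase θ j
      = ∏ a, (phase θ a) ^ ((if a = i then 3 else 0) + (if a = j then 1 else 0)) := by
    intro θ
    simp only [pow_add, Finset.prod_mul_distrib, prod_pow_single, conj_phase, pow_one]
  simp only [hmono, sum_prod_phase]
  refine if_congr ?_ rfl rfl
  constructor
  · intro hall
    have hi := hall i
    simp only [if_true] at hi
    split_ifs at hi <;> omega
  · rintro rfl a
    split_ifs <;> omega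

/-- Fourth moment of the phases. -/
lemma sum_phase_four {N : ℕ} (i j k l : Fin N) :
    ∑ θ : Fin N → Fin 4, phase θ i * conj (phase θ j) * (conj (phase θ k) * phase θ l)
      = if (i = j ∧ k = l) ∨ (i = k ∧ j = l) then (4 : ℂ) ^ N else 0 := by
  have hmono : ∀ θ : Fin N → Fin 4,
      phase θ i * conj (phase θ j) * (conj (phase θ k) * phase θ l)
      = ∏ a, (phase θ a) ^ ((if a = i then 1 else 0) + (if a = j then 3 else 0)
          + (if a = k then 3 else 0) + (if a = l then 1 else 0)) := by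
    intro θ
    simp only [pow_add, Finset.prod_mul_distrib, prod_pow_single, conj_phase, pow_one]
    ring
  simp only [hmono, sum_prod_phase]
  refine if_congr ?_ rfl rfl
  constructor
  · intro hall
    have hi := hall i
    have hj := hall j
    have hk := hall k
    have hl := hall l
    simp only [eq_comm (a := j) (b := i), eq_comm (a := k) (b := i), eq_comm (a := l) (b := i),
      eq_comm (a := k) (b := j), eq_comm (a := l) (b := j), eq_comm (a := l) (b := k),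
      if_true] at hi hj hk hl
    split_ifs at hi hj hk hl <;> omega
  · rintro (⟨rfl, rfl⟩ | ⟨rfl, rfl⟩) a
    · split_ifs <;> omega
    · split_ifs <;> omega


section vectors

variable {E : Type*} [NormedAddCommGroup E] [InnerProductSpace ℂ E]

/-- Second moment identity for vectors (complex form). -/
lemma sum_inner_phase_two {N : ℕ} (y : Fin N → E) :
    ∑ θ : Fin N → Fin 4, ⟪∑ i, phase θ i • y i, ∑ i, phase θ i • y i⟫_ℂ
      = (4 : ℂ) ^ N * ∑ i, ⟪y i, y i⟫_ℂ := by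
  have h1 : ∀ θ : Fin N → Fin 4, ⟪∑ i, phase θ i • y i, ∑ i, phase θ i • y i⟫_ℂ
      = ∑ i, ∑ j, (conj (phase θ i) * phase θ j) * ⟪y i, y j⟫_ℂ := by
    intro θ
    rw [sum_inner]
    refine Finset.sum_congr rfl (fun i _ => ?_)
    rw [inner_sum]
    refine Finset.sum_congr rfl (fun j _ => ?_)
    rw [inner_smul_left, inner_smul_right]
    ring
  simp only [h1]
  rw [Finset.sum_comm]
  rw [Finset.mul_sum]
  refine Finset.sum_congr rfl (fun i _ => ?_)
  rw [Finset.sum_comm]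
  simp only [← Finset.sum_mul, sum_phase_two]
  simp

/-- **G1 (vector form).** Second moment of a random-phase sum. -/
theorem sum_norm_sq_phase {N : ℕ} (y : Fin N → E) :
    ∑ θ : Fin N → Fin 4, ‖∑ i, phase θ i • y i‖ ^ 2 = (4 : ℝ) ^ N * ∑ i, ‖y i‖ ^ 2 := by
  have h := sum_inner_phase_two y
  simp only [inner_self_eq_norm_sq_to_K] at h
  have h' : ((∑ θ : Fin N → Fin 4, ‖∑ i, phase θ i • y i‖ ^ 2 : ℝ) : ℂ)
      = (((4 : ℝ) ^ N * ∑ i, ‖y i‖ ^ 2 : ℝ) : ℂ) := by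
    push_cast
    exact h
  exact Complex.ofReal_injective h'

lemma four_indicator {N : ℕ} (a : ℂ) (w : Fin N → Fin N → Fin N → Fin N → ℂ) :
    ∑ i, ∑ j, ∑ k, ∑ l, (if (i = j ∧ k = l) ∨ (i = k ∧ j = l) then a else 0) * w i j k l
      = a * (∑ i, ∑ k, w i i k k + ∑ i, ∑ j, if i = j then 0 else w i j i j) := by
  have hdec : ∀ i j k l, (if (i = j ∧ k = l) ∨ (i = k ∧ j = l) then a else 0) * w i j k l
      = (if i = j then (if k = l then a * w i j k l else 0) else 0)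
        + (if i = j then 0 else (if i = k then (if j = l then a * w i j k l else 0) else 0)) := by
    intro i j k l
    by_cases hij : i = j
    · subst hij
      by_cases hkl : k = l
      · simp [hkl]
      · have : ¬ (i = k ∧ i = l) := fun h => hkl (h.1.symm.trans h.2)
        simp [hkl, this]
    · by_cases hik : i = k
      · subst hik
        by_cases hjl : j = l
        · subst hjl
          simp [hij]
        · simp [hij, hjl]
      · simp [hij, hik]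
  simp only [hdec, Finset.sum_add_distrib, Finset.sum_ite_irrel, Finset.sum_const_zero,
    Finset.sum_ite_eq, Finset.mem_univ, if_true, mul_add, Finset.mul_sum, mul_ite, mul_zero]

/-- Fourth moment identity for vectors (complex form). -/
lemma sum_inner_phase_four {N : ℕ} (z : Fin N → Fin N → E) :
    ∑ θ : Fin N → Fin 4,
        ⟪∑ i, ∑ j, (conj (phase θ i) * phase θ j) • z i j,
          ∑ i, ∑ j, (conj (phase θ i) * phase θ j) • z i j⟫_ℂ
      = (4 : ℂ) ^ N * (∑ i, ∑ k, ⟪z i i, z k k⟫_ℂ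
          + ∑ i, ∑ j, if i = j then 0 else ⟪z i j, z i j⟫_ℂ) := by
  have h1 : ∀ θ : Fin N → Fin 4,
      ⟪∑ i, ∑ j, (conj (phase θ i) * phase θ j) • z i j,
          ∑ i, ∑ j, (conj (phase θ i) * phase θ j) • z i j⟫_ℂ
      = ∑ i, ∑ j, ∑ k, ∑ l, (phase θ i * conj (phase θ j) * (conj (phase θ k) * phase θ l))
          * ⟪z i j, z k l⟫_ℂ := by
    intro θ
    rw [sum_inner]
    refine Finset.sum_congr rfl (fun i _ => ?_)
    rw [sum_inner]
    refine Finset.sum_congr rfl (fun j _ => ?_)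
    rw [inner_sum]
    refine Finset.sum_congr rfl (fun k _ => ?_)
    rw [inner_sum]
    refine Finset.sum_congr rfl (fun l _ => ?_)
    rw [inner_smul_left, inner_smul_right, map_mul, Complex.conj_conj]
    ring
  simp only [h1]
  refine Eq.trans ?_ (four_indicator ((4 : ℂ) ^ N) (fun i j k l => ⟪z i j, z k l⟫_ℂ))
  rw [Finset.sum_comm]
  refine Finset.sum_congr rfl (fun i _ => ?_)
  rw [Finset.sum_comm]
  refine Finset.sum_congr rfl (fun j _ => ?_)
  rw [Finset.sum_comm]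
  refine Finset.sum_congr rfl (fun k _ => ?_)
  rw [Finset.sum_comm]
  refine Finset.sum_congr rfl (fun l _ => ?_)
  rw [← Finset.sum_mul, sum_phase_four]

/-- **G2 (vector form).** Fourth-moment identity for a random-phase quadratic chaos. -/
theorem sum_norm_sq_phase_four {N : ℕ} (z : Fin N → Fin N → E) :
    ∑ θ : Fin N → Fin 4, ‖∑ i, ∑ j, (conj (phase θ i) * phase θ j) • z i j‖ ^ 2
      = (4 : ℝ) ^ N * (‖∑ i, z i i‖ ^ 2 + ∑ i, ∑ j, if i = j then 0 else ‖z i j‖ ^ 2) := by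
  have h := sum_inner_phase_four z
  have h2 : ∑ i, ∑ k, ⟪z i i, z k k⟫_ℂ = ⟪∑ i, z i i, ∑ k, z k k⟫_ℂ := by
    rw [sum_inner]
    refine Finset.sum_congr rfl (fun i _ => ?_)
    rw [inner_sum]
  rw [h2] at h
  simp only [inner_self_eq_norm_sq_to_K] at h
  have h' : ((∑ θ : Fin N → Fin 4,
        ‖∑ i, ∑ j, (conj (phase θ i) * phase θ j) • z i j‖ ^ 2 : ℝ) : ℂ)
      = (((4 : ℝ) ^ N * (‖∑ i, z i i‖ ^ 2
          + ∑ i, ∑ j, if i = j then 0 else ‖z i j‖ ^ 2) : ℝ) : ℂ) := by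
    push_cast
    refine h.trans ?_
    congr 2
    refine Finset.sum_congr rfl (fun i _ => Finset.sum_congr rfl (fun j _ => ?_))
    split_ifs <;> simp
  exact Complex.ofReal_injective h'

end vectors

section operators

variable {H : Type*} [NormedAddCommGroup H] [InnerProductSpace ℂ H]

/-- The (unnormalised) random-phase sum `Σ_i θ_i x_i`. -/
noncomputable def psum {N : ℕ} (x : Fin N → H →L[ℂ] H) (θ : Fin N → Fin 4) : H →L[ℂ] H :=
  ∑ i, phase θ i • x i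

lemma psum_apply {N : ℕ} (x : Fin N → H →L[ℂ] H) (θ : Fin N → Fin 4) (ξ : H) :
    psum x θ ξ = ∑ i, phase θ i • x i ξ := by
  simp [psum]

/-- `psum` stays in any subspace (e.g. a von Neumann algebra) containing the `x i`. -/
lemma psum_mem {N : ℕ} (x : Fin N → H →L[ℂ] H) (θ : Fin N → Fin 4)
    (M : Submodule ℂ (H →L[ℂ] H)) (hx : ∀ i, x i ∈ M) : psum x θ ∈ M :=
  Submodule.sum_mem _ (fun i _ => Submodule.smul_mem _ _ (hx i))

/-- **G1.** `E_θ ‖T v_θ ξ‖² = Σ_i ‖T x_i ξ‖²` (unnormalised: `v_θ = Σ_i θ_i x_i`, the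
expectation is `4^{-N} Σ_θ`). -/
theorem sum_norm_sq_psum {N : ℕ} (x : Fin N → H →L[ℂ] H) (T : H →L[ℂ] H) (ξ : H) :
    ∑ θ : Fin N → Fin 4, ‖T (psum x θ ξ)‖ ^ 2 = (4 : ℝ) ^ N * ∑ i, ‖T (x i ξ)‖ ^ 2 := by
  have h : ∀ θ : Fin N → Fin 4, T (psum x θ ξ) = ∑ i, phase θ i • T (x i ξ) := by
    intro θ
    rw [psum_apply, map_sum]
    simp
  simp only [h]
  exact sum_norm_sq_phase (fun i => T (x i ξ))

variable [CompleteSpace H]

lemma star_psum {N : ℕ} (x : Fin N → H →L[ℂ] H) (θ : Fin N → Fin 4) :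
    star (psum x θ) = ∑ i, conj (phase θ i) • star (x i) := by
  simp [psum, star_sum, star_smul]

/-- `psum` stays in a von Neumann algebra containing the `x i`. -/
lemma psum_mem_vN {N : ℕ} (x : Fin N → H →L[ℂ] H) (θ : Fin N → Fin 4)
    (M : VonNeumannAlgebra H) (hx : ∀ i, x i ∈ M) : psum x θ ∈ M := by
  show psum x θ ∈ M.toStarSubalgebra
  exact sum_mem (fun i _ => SMulMemClass.smul_mem _ (hx i))

lemma star_psum_apply {N : ℕ} (x : Fin N → H →L[ℂ] H) (θ : Fin N → Fin 4) (ξ : H) :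
    star (psum x θ) (psum x θ ξ)
      = ∑ i, ∑ j, (conj (phase θ i) * phase θ j) • star (x i) (x j ξ) := by
  rw [star_psum, psum_apply, sum_apply]
  refine Finset.sum_congr rfl (fun i _ => ?_)
  rw [smul_apply, map_sum, Finset.smul_sum]
  refine Finset.sum_congr rfl (fun j _ => ?_)
  rw [map_smul, smul_smul]

/-- **G2 (exact).** `E_θ ‖v_θ* v_θ ξ‖² = ‖Σ_i x_i* x_i ξ‖² + Σ_{i≠j} ‖x_i* x_j ξ‖²`
(unnormalised). -/
theorem sum_norm_sq_star_psum {N : ℕ} (x : Fin N → H →L[ℂ] H) (ξ : H) :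
    ∑ θ : Fin N → Fin 4, ‖star (psum x θ) (psum x θ ξ)‖ ^ 2
      = (4 : ℝ) ^ N * (‖∑ i, star (x i) (x i ξ)‖ ^ 2
          + ∑ i, ∑ j, if i = j then 0 else ‖star (x i) (x j ξ)‖ ^ 2) := by
  simp only [star_psum_apply]
  exact sum_norm_sq_phase_four (fun i j => star (x i) (x j ξ))

/-- **G2 (bound).** `E_θ ‖v_θ* v_θ ξ‖² ≤ ‖c ξ‖² + Σ_j ⟨x_j ξ, r x_j ξ⟩` with
`c = Σ_i x_i* x_i`, `r = Σ_i x_i x_i*` (unnormalised). -/
theorem sum_norm_sq_star_psum_le {N : ℕ} (x : Fin N → H →L[ℂ] H) (ξ : H) :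
    ∑ θ : Fin N → Fin 4, ‖star (psum x θ) (psum x θ ξ)‖ ^ 2
      ≤ (4 : ℝ) ^ N * (‖(∑ i, star (x i) * x i) ξ‖ ^ 2
          + ∑ j, (⟪x j ξ, (∑ i, x i * star (x i)) (x j ξ)⟫_ℂ).re) := by
  rw [sum_norm_sq_star_psum]
  have h1 : (∑ i, star (x i) * x i) ξ = ∑ i, star (x i) (x i ξ) := by
    simp
  have h2 : ∀ j, (⟪x j ξ, (∑ i, x i * star (x i)) (x j ξ)⟫_ℂ).re
      = ∑ i, ‖star (x i) (x j ξ)‖ ^ 2 := by
    intro j
    rw [sum_apply, inner_sum, Complex.re_sum]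
    refine Finset.sum_congr rfl (fun i _ => ?_)
    rw [mul_apply_eq_comp, ContinuousLinearMap.star_eq_adjoint,
      ← ContinuousLinearMap.adjoint_inner_left, inner_self_eq_norm_sq_to_K]
    norm_cast
  rw [h1]
  simp only [h2]
  refine mul_le_mul_of_nonneg_left ?_ (by positivity)
  refine add_le_add le_rfl ?_
  rw [Finset.sum_comm]
  refine Finset.sum_le_sum (fun i _ => Finset.sum_le_sum (fun j _ => ?_))
  split_ifs
  · positivity
  · exact le_rfl

/-- Pigeonhole over the phases. -/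
theorem exists_phase_of_avg {N : ℕ} (A B C : (Fin N → Fin 4) → ℝ) (K a c : ℝ) (hK : 0 ≤ K)
    (hpt : ∀ θ, A θ ≤ 2 * B θ + K * C θ)
    (hA : (4 : ℝ) ^ N * a ≤ ∑ θ, A θ) (hC : ∑ θ, C θ ≤ (4 : ℝ) ^ N * c) :
    ∃ θ, (a - K * c) / 2 ≤ B θ := by
  by_contra hcon
  push Not at hcon
  have hcard : (∑ _θ : Fin N → Fin 4, (a - K * c) / 2) = (4 : ℝ) ^ N * ((a - K * c) / 2) := by
    simp
  have hlt : ∑ θ, B θ < (4 : ℝ) ^ N * ((a - K * c) / 2) := by
    rw [← hcard]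
    exact Finset.sum_lt_sum_of_nonempty Finset.univ_nonempty (fun θ _ => hcon θ)
  have hsum : ∑ θ, A θ ≤ 2 * ∑ θ, B θ + K * ∑ θ, C θ := by
    rw [Finset.mul_sum, Finset.mul_sum, ← Finset.sum_add_distrib]
    exact Finset.sum_le_sum (fun θ _ => hpt θ)
  have hKC : K * ∑ θ, C θ ≤ K * ((4 : ℝ) ^ N * c) := mul_le_mul_of_nonneg_left hC hK
  nlinarith

/-- **Package G, assembled** (the shape used in step I.6 of `PROOF.md`).  Let `Φ` be any
"truncation" map from operators to vectors with `‖Φ v - v ξ‖² ≤ ‖v* v ξ‖² / (4R)`.  Then some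
choice of phases `θ` has
`‖T (Φ v_θ)‖² ≥ (Σ_i ‖T x_i ξ‖² - ‖T‖²/(2R) · (‖c ξ‖² + Σ_j ⟨x_j ξ, r x_j ξ⟩)) / 2`,
where `v_θ = Σ_i θ_i x_i`, `c = Σ_i x_i* x_i`, `r = Σ_i x_i x_i*`. -/
theorem exists_phase_good {N : ℕ} (x : Fin N → H →L[ℂ] H) (T : H →L[ℂ] H) (ξ : H)
    (Φ : (H →L[ℂ] H) → H) (R : ℝ) (hR : 0 < R)
    (hΦ : ∀ θ : Fin N → Fin 4,
      ‖Φ (psum x θ) - psum x θ ξ‖ ^ 2 ≤ ‖star (psum x θ) (psum x θ ξ)‖ ^ 2 / (4 * R)) :
    ∃ θ : Fin N → Fin 4,
      (∑ i, ‖T (x i ξ)‖ ^ 2 - ‖T‖ ^ 2 / (2 * R) * (‖(∑ i, star (x i) * x i) ξ‖ ^ 2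
          + ∑ j, (⟪x j ξ, (∑ i, x i * star (x i)) (x j ξ)⟫_ℂ).re)) / 2
        ≤ ‖T (Φ (psum x θ))‖ ^ 2 := by
  refine exists_phase_of_avg (fun θ => ‖T (psum x θ ξ)‖ ^ 2) (fun θ => ‖T (Φ (psum x θ))‖ ^ 2)
    (fun θ => ‖star (psum x θ) (psum x θ ξ)‖ ^ 2) (‖T‖ ^ 2 / (2 * R)) _ _ (by positivity)
    ?_ (sum_norm_sq_psum x T ξ).ge (sum_norm_sq_star_psum_le x ξ)
  intro θ
  have h1 : T (psum x θ ξ) = T (Φ (psum x θ)) - T (Φ (psum x θ) - psum x θ ξ) := by
    rw [map_sub]; abel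
  have h2 : ‖T (psum x θ ξ)‖ ≤ ‖T (Φ (psum x θ))‖ + ‖T‖ * ‖Φ (psum x θ) - psum x θ ξ‖ := by
    rw [h1]
    exact (norm_sub_le _ _).trans (add_le_add le_rfl (T.le_opNorm _))
  have h3 : ‖T (psum x θ ξ)‖ ^ 2
      ≤ 2 * ‖T (Φ (psum x θ))‖ ^ 2 + 2 * (‖T‖ * ‖Φ (psum x θ) - psum x θ ξ‖) ^ 2 := by
    have h0 : 0 ≤ ‖T (psum x θ ξ)‖ := norm_nonneg _
    nlinarith [sq_nonneg (‖T (Φ (psum x θ))‖ - ‖T‖ * ‖Φ (psum x θ) - psum x θ ξ‖)]
  have h4 : 2 * (‖T‖ * ‖Φ (psum x θ) - psum x θ ξ‖) ^ 2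
      ≤ ‖T‖ ^ 2 / (2 * R) * ‖star (psum x θ) (psum x θ ξ)‖ ^ 2 := by
    have h5 := hΦ θ
    have h6 : 2 * (‖T‖ * ‖Φ (psum x θ) - psum x θ ξ‖) ^ 2
        = 2 * ‖T‖ ^ 2 * ‖Φ (psum x θ) - psum x θ ξ‖ ^ 2 := by ring
    have h7 : ‖T‖ ^ 2 / (2 * R) * ‖star (psum x θ) (psum x θ ξ)‖ ^ 2
        = 2 * ‖T‖ ^ 2 * (‖star (psum x θ) (psum x θ ξ)‖ ^ 2 / (4 * R)) := by
      field_simp
      ring
    rw [h6, h7]
    exact mul_le_mul_of_nonneg_left h5 (by positivity)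
  show ‖T (psum x θ ξ)‖ ^ 2 ≤ 2 * ‖T (Φ (psum x θ))‖ ^ 2
      + ‖T‖ ^ 2 / (2 * R) * ‖star (psum x θ) (psum x θ ξ)‖ ^ 2
  linarith

end operators

end Crest.Agent.Helper62.S0112
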